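import Vale.Agent.P252.B.Main

open Vale.Agent.P252

/-- The affine Bernstein theorem holds in dimension `n ≥ 3` exactly when `n ≤ 9`, both for
Euclidean complete graphs over convex domains and for entire graphs. -/
theorem Vale.Agent.Results.P252.Affine.result :
    ∀ n : ℕ, 3 ≤ n → (Bern n ↔ n ≤ 9) ∧ (BernEntire n ↔ n ≤ 9) :=
  Vale.Agent.P252.full
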