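import Vale.Agent.P252.Main

open Matrix Vale.Agent.P252
open scoped ContDiff

/-- For every `n ≥ 10` there is a smooth entire solution of the affine maximal equation on `ℝⁿ`
with positive definite Hessian everywhere that is not a quadratic polynomial. -/
theorem Vale.Agent.Results.P252.Counter.result :
    ∀ n : ℕ, 10 ≤ n →
      ∃ u : (Fin n → ℝ) → ℝ, ContDiff ℝ ∞ u ∧ (∀ x, (hess u x).PosDef) ∧
        (∀ x, ∑ i, ∑ j, ((hess u x).det * (hess u x)⁻¹ i j) *
          hess (fun y => (hess u y).det ^ (-((n : ℝ) + 1) / ((n : ℝ) + 2))) x i j = 0) ∧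
        ¬ ∃ (A : Matrix (Fin n) (Fin n) ℝ) (b : Fin n → ℝ) (c : ℝ),
          ∀ x, u x = (1 / 2) * (x ⬝ᵥ A *ᵥ x) + b ⬝ᵥ x + c :=
  Vale.Agent.P252.main
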